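import Vale.Agent.P254D.Cls

open MeasureTheory Set Vale.Agent.P254 Vale.Agent.P254U Vale.Agent.P254B Vale.Agent.P254D

/-- The strong isotropic constant conjecture (with strict inequality from dimension two on) for all
convex bodies with an affine image in the class `Cls`, and more generally with an affine image
that is unconditional and satisfies `∏ 4 E|x_i| ≤ |K|`; every body of `Cls` is such. -/
theorem Vale.Agent.Results.P254.GeneratedClass.result :
    -- the theorem for the generated class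
    (∀ (n : ℕ) (K : Set (Fin n → ℝ)), IsBody K →
      ∀ (T : (Fin n → ℝ) ≃ᵃ[ℝ] (Fin n → ℝ)), Vale.Agent.P254D.Cls n (T '' K) →
      (∀ p : Fin (n + 1) → (Fin n → ℝ), AffineIndependent ℝ p →
        isoConst K ≤ isoConst (convexHull ℝ (Set.range p)) ∧
        (2 ≤ n → isoConst K < isoConst (convexHull ℝ (Set.range p)))) ∧
      isoConst K ^ 2 ≤ ((n : ℝ) + 1) / (8 * ((n : ℝ) + 2))) ∧
    -- the members of the class
    (∀ (n : ℕ) (K : Set (Fin n → ℝ)), Vale.Agent.P254D.Cls n K →
      IsBody K ∧ Unconditional K ∧ MomProp K) ∧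
    -- the criterion
    (∀ (n : ℕ), 1 ≤ n → ∀ (K : Set (Fin n → ℝ)), IsBody K →
      ∀ (T : (Fin n → ℝ) ≃ᵃ[ℝ] (Fin n → ℝ)), Unconditional (T '' K) → MomProp (T '' K) →
      (∀ p : Fin (n + 1) → (Fin n → ℝ), AffineIndependent ℝ p →
        isoConst K ≤ isoConst (convexHull ℝ (Set.range p)) ∧
        (2 ≤ n → isoConst K < isoConst (convexHull ℝ (Set.range p)))) ∧
      isoConst K ^ 2 ≤ ((n : ℝ) + 1) / (8 * ((n : ℝ) + 2))) := by
  refine ⟨?_, ?_, ?_⟩
  · intro n K hK T hT
    obtain ⟨hn, _, hs, hm⟩ := hT.props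
    exact ⟨fun p hp => main_uncond hn hK T hs hm p hp, isoConst_sq_le_uncond hn hK T hs hm⟩
  · intro n K hK
    exact hK.props.2
  · intro n hn K hK T hs hm
    exact ⟨fun p hp => main_uncond hn hK T hs hm p hp, isoConst_sq_le_uncond hn hK T hs hm⟩
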