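import Vale.Agent.P254.Fin3

open MeasureTheory Set Vale.Agent.P254

/-- The strong isotropic constant conjecture for all affine images of one-symmetric convex bodies,
in every dimension, with strict inequality from dimension two on and an explicit bound; and the
sharp inequality between the volume and the first absolute moment. -/
theorem Vale.Agent.Results.P254.OneSymmetric.result :
    (∀ (n : ℕ), 1 ≤ n → ∀ (K : Set (Fin n → ℝ)), IsBody K →
      ∀ (T : (Fin n → ℝ) ≃ᵃ[ℝ] (Fin n → ℝ)), Vale.Agent.P254.OneSymmetric (T '' K) →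
      -- for every simplex `Δ`: `L_K ≤ L_Δ`, and `<` if `n ≥ 2`
      (∀ p : Fin (n + 1) → (Fin n → ℝ), AffineIndependent ℝ p →
        isoConst K ≤ isoConst (convexHull ℝ (Set.range p)) ∧
        (2 ≤ n → isoConst K < isoConst (convexHull ℝ (Set.range p)))) ∧
      -- `L_K ^ 2 ≤ (n + 1) / (8 (n + 2))`
      isoConst K ^ 2 ≤ ((n : ℝ) + 1) / (8 * ((n : ℝ) + 2))) ∧
    -- `(4 E|x_i|)^n ≤ |K|` for one-symmetric `K`
    (∀ (n : ℕ) (K : Set (Fin n → ℝ)), IsBody K → Vale.Agent.P254.OneSymmetric K → ∀ i : Fin n,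
      (4 * ((∫ x in K, |x i|) / (volume K).toReal)) ^ n ≤ (volume K).toReal) := by
  exact ⟨fun n hn K hK T hs => ⟨fun p hp => main_le hn hK T hs p hp, isoConst_sq_le hn hK T hs⟩,
    fun n K hK hs i => first_abs_moment hK hs i⟩
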