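import Vale.Agent.P254U.AllU

open MeasureTheory Set Vale.Agent.P254 Vale.Agent.P254U

/-- The strong isotropic constant conjecture (with strict inequality from dimension two on) for all
convex bodies with an affine image in the class of unconditional bodies `K` with
`∏ 4 E|x_i| ≤ |K|`; this class contains all one-symmetric bodies, all generalized Orlicz balls,
and is closed under products. -/
theorem Vale.Agent.Results.P254.Unconditional.result :
    (∀ (n : ℕ), 1 ≤ n → ∀ (K : Set (Fin n → ℝ)), IsBody K →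
      ∀ (T : (Fin n → ℝ) ≃ᵃ[ℝ] (Fin n → ℝ)), Unconditional (T '' K) → MomProp (T '' K) →
      -- for every simplex `Δ`: `L_K ≤ L_Δ`, and `<` if `n ≥ 2`
      (∀ p : Fin (n + 1) → (Fin n → ℝ), AffineIndependent ℝ p →
        isoConst K ≤ isoConst (convexHull ℝ (Set.range p)) ∧
        (2 ≤ n → isoConst K < isoConst (convexHull ℝ (Set.range p)))) ∧
      -- `L_K ^ 2 ≤ (n + 1) / (8 (n + 2))`
      isoConst K ^ 2 ≤ ((n : ℝ) + 1) / (8 * ((n : ℝ) + 2))) ∧
    -- one-symmetric bodies are in the class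
    (∀ (n : ℕ), 1 ≤ n → ∀ (K : Set (Fin n → ℝ)), IsBody K → Vale.Agent.P254.OneSymmetric K →
      Unconditional K ∧ MomProp K) ∧
    -- generalized Orlicz balls are in the class
    (∀ (n : ℕ), 1 ≤ n → ∀ φ : Fin n → ℝ → ℝ, (∀ i, Young (φ i)) →
      IsBody (orlBall φ) ∧ Unconditional (orlBall φ) ∧ MomProp (orlBall φ)) ∧
    -- the class is closed under products
    (∀ (m n : ℕ) (K : Set (Fin m → ℝ)) (L : Set (Fin n → ℝ)), IsBody K → IsBody L →
      Unconditional K → Unconditional L → MomProp K → MomProp L →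
      IsBody (prodSet K L) ∧ Unconditional (prodSet K L) ∧ MomProp (prodSet K L)) := by
  refine ⟨?_, ?_, ?_, ?_⟩
  · intro n hn K hK T hs hm
    exact ⟨fun p hp => main_uncond hn hK T hs hm p hp, isoConst_sq_le_uncond hn hK T hs hm⟩
  · intro n hn K hK hs
    exact ⟨oneSym_uncond hs, oneSym_momProp hn hK hs⟩
  · intro n hn φ hφ
    exact ⟨orlBall_body hφ, orlBall_uncond φ, orlBall_momProp hn hφ⟩
  · intro m n K L hK hL hKs hLs hKm hLm
    exact ⟨prod_body hK hL, prod_uncond hKs hLs, prod_momProp hK hL hKm hLm⟩
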